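import Vale.Agent.P233.H22.LS2

/-! The regular potentials between the two obstacles, with the bounds needed near `t = 1`. -/

set_option linter.all false

open MeasureTheory Filter Topology
open scoped ENNReal NNReal

namespace Vale.Agent.P233

variable {M : Type*} [MeasurableSpace M] {m : Measure M} {C : Calc m}
variable {f g h k φ u η χ θ : M →ₘ[m] ℝ}

theorem IsDir.eta_exists (hC : IsDir C) [SigmaFinite m] {c1 c2 B V : ℝ} (hc1 : 0 ≤ c1)
    (hc2 : 0 ≤ c2) (hφ : φ ∈ C.A) (hu : u ∈ C.A) (hle : φ ≤ u) (hB0 : 0 ≤ B)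
    (hφB : ∀ᵐ x ∂m, |φ x| ≤ B) (huB : ∀ᵐ x ∂m, |u x| ≤ B)
    (hχ : χ ∈ C.A) (hχ1 : MemLp χ 1 m) (hχ0 : 0 ≤ χ) (hχV : I χ ≤ V)
    (hχle : ∀ᵐ x ∂m, χ x ≤ 1)
    (hcut : ∀ᵐ x ∂m, (φ x ≠ 0 ∨ u x ≠ 0) → χ x = 1)
    (hθ : θ ∈ C.A) (hθχ : ∀ᵐ x ∂m, χ x ≠ 0 → θ x = 1)
    (h1 : ∀ g ∈ C.A, 0 ≤ g → MemLp g 1 m → I (C.Γ φ g) ≤ c1 * I g)
    (h2 : ∀ g ∈ C.A, 0 ≤ g → MemLp g 1 m → -I (C.Γ u g) ≤ c2 * I g) :
    ∃ η h : M →ₘ[m] ℝ, C.IsLap η h ∧ φ ≤ η ∧ η ≤ u ∧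
      (∀ᵐ x ∂m, h x ≤ c2 + 2 * B) ∧ (∀ᵐ x ∂m, |h x| ≤ c1 + c2 + 4 * B) ∧
      I (h ^ 2) ≤ (c1 + c2 + 4 * B) * (2 * (c2 + 2 * B) * V) ∧
      I (C.Γ η η) ≤ B * (2 * (c2 + 2 * B) * V) ∧
      ∀ g ∈ C.W, ∀ᵐ x ∂m, φ x = u x → C.Γ η g x = C.Γ u g x := by
  have hK : MemLp ((c1 + c2) • χ : M →ₘ[m] ℝ) 2 m := mem_smul _ (hC.memLp χ hχ.1)
  have hK2 : MemLp (c2 • χ : M →ₘ[m] ℝ) 2 m := mem_smul _ (hC.memLp χ hχ.1)
  have hK0 : 0 ≤ (c1 + c2) • χ := smul_nonneg' (by positivity) hχ0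
  have hK20 : 0 ≤ c2 • χ := smul_nonneg' hc2 hχ0
  have hneg : ∀ g ∈ C.W, 0 ≤ g → -I (C.Γ u g) ≤ I ((c2 • χ) * g) := by
    intro g hg h0
    have e : ∀ g ∈ C.W, I (C.Γ (-u) g) = -I (C.Γ u g) := fun g hg => by
      rw [hC.Γ_neg_left hu.1 hg, I_neg]
    rw [← e g hg]
    refine hC.le_cut (a := -u) hc2 (hC.neg_mem hu.1) hχ hχ1 hχ0 ?_ (fun g hg h0 h1' => ?_) g hg h0
    · filter_upwards [hcut, neg_ae u] with x a1 a2 a3
      rw [a2] at a3
      exact a1 (Or.inr (by simpa using a3))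
    · rw [e g hg.1]; exact h2 g hg h0 h1'
  have hpos : ∀ g ∈ C.W, 0 ≤ g → I (C.Γ φ g) ≤ I ((c1 • χ) * g) :=
    hC.le_cut hc1 hφ.1 hχ hχ1 hχ0 (by filter_upwards [hcut] with x a1 a2 using a1 (Or.inl a2)) h1
  have hmono : ∀ c : ℝ, c ≤ c1 + c2 → ∀ g ∈ C.W, 0 ≤ g →
      I ((c • χ) * g) ≤ I (((c1 + c2) • χ) * g) := by
    intro c hc g hg h0
    have m1 : MemLp (χ * g : M →ₘ[m] ℝ) 1 m := mem_mul_22 (hC.memLp _ hχ.1) (hC.memLp _ hg)
    have p : 0 ≤ I (χ * g) := by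
      refine I_nonneg ?_
      rw [nonneg_iff_ae]
      filter_upwards [mul_ae χ g, nonneg_iff_ae.1 hχ0, nonneg_iff_ae.1 h0] with x a1 a2 a3
      rw [a1]; exact mul_nonneg a2 a3
    rw [smul_mul_assoc, smul_mul_assoc, I_smul, I_smul]
    exact mul_le_mul_of_nonneg_right hc p
  obtain ⟨η, h, hlap, l1, l2, l3, l4⟩ := hC.lewy_stampacchia2 hφ.1 hu.1 hle hK hK0
    (fun g hg h0 => (hpos g hg h0).trans (hmono c1 (by linarith) g hg h0))
    (fun g hg h0 => (hneg g hg h0).trans (hmono c2 (by linarith) g hg h0)) hK2 hK20 hneg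
  -- bounds in terms of `χ`
  have hsmall : ∀ᵐ x ∂m, |φ x| + |u x| ≤ 2 * B * χ x := by
    filter_upwards [hcut, hφB, huB, nonneg_iff_ae.1 hχ0] with x a1 a2 a3 a4
    by_cases hx : φ x ≠ 0 ∨ u x ≠ 0
    · rw [a1 hx]; linarith
    · push Not at hx
      rw [hx.1, hx.2]
      simp only [abs_zero, add_zero]
      positivity
  have hhχ : ∀ᵐ x ∂m, |h x| ≤ (c1 + c2 + 4 * B) * χ x := by
    filter_upwards [l3, smul_ae χ (c1 + c2), hsmall] with x a1 a2 a3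
    rw [a2] at a1
    linarith
  have hhup : ∀ᵐ x ∂m, h x ≤ (c2 + 2 * B) * χ x := by
    filter_upwards [l4, smul_ae χ c2, hsmall] with x a1 a2 a3
    rw [a2] at a1
    linarith
  have hηB : ∀ᵐ x ∂m, |η x| ≤ B := by
    filter_upwards [le_iff_ae.1 l1, le_iff_ae.1 l2, hφB, huB] with x a1 a2 a3 a4
    rw [abs_le] at a3 a4 ⊢
    constructor <;> linarith
  have hη0 : ∀ᵐ x ∂m, χ x = 0 → η x = 0 := by
    filter_upwards [le_iff_ae.1 l1, le_iff_ae.1 l2, hcut] with x a1 a2 a3 a4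
    have : ¬ (φ x ≠ 0 ∨ u x ≠ 0) := fun hx => by
      have := a3 hx
      rw [a4] at this
      exact zero_ne_one this
    push Not at this
    rw [this.1] at a1
    rw [this.2] at a2
    exact le_antisymm a2 a1
  have hh0 : ∀ᵐ x ∂m, χ x = 0 → h x = 0 := by
    filter_upwards [hhχ] with x a1 a2
    rw [a2, mul_zero] at a1
    exact abs_nonpos_iff.1 a1
  have hh1 : MemLp h 1 m := by
    refine mem_of_le (mem_smul (c1 + c2 + 4 * B) hχ1) ?_
    filter_upwards [hhχ, smul_ae χ (c1 + c2 + 4 * B)] with x a1 a2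
    rw [a2]; exact a1.trans (le_abs_self _)
  have hhT : MemLp h ∞ m := by
    refine mem_of_le (mem_smul (c1 + c2 + 4 * B) hχ.2) ?_
    filter_upwards [hhχ, smul_ae χ (c1 + c2 + 4 * B)] with x a1 a2
    rw [a2]; exact a1.trans (le_abs_self _)
  have hh2 := hlap.2.1
  -- `∫ h = 0`
  have hI : I h = 0 := by
    have e1 : I (C.Γ η θ) = -I (h * θ) := hlap.2.2 _ hθ.1
    have e2 : h * θ = h := by
      rw [eq_iff_ae]
      filter_upwards [mul_ae h θ, hθχ, hh0] with x a1 a2 a3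
      rw [a1]
      by_cases hx : χ x = 0
      · rw [a3 hx]; ring
      · rw [a2 hx]; ring
    have e3 : I (C.Γ η θ) = 0 := by
      have : C.Γ η θ = 0 := by
        rw [eq_iff_ae]
        filter_upwards [hC.Γ_ae_zero hlap.1 hθ.1, hC.Γ_level hθ.1 hlap.1 1,
          eq_iff_ae.1 (hC.symm _ hlap.1 _ hθ.1), hθχ, hη0, zero_ae (M := M) (m := m)]
          with x a1 a2 a3 a4 a5 a6
        rw [a6]
        by_cases hx : χ x = 0
        · exact a1 (a5 hx)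
        · rw [a3]; exact a2 (a4 hx)
      rw [this, I_zero]
    rw [e2, e3] at e1
    linarith
  -- the positive part
  set V1 : ℝ := 2 * (c2 + 2 * B) * V with hV1
  have habs : ∫ x, |h x| ∂m ≤ V1 := by
    have e1 : ∫ x, |h x| ∂m = ∫ x, (|h x| + h x) ∂m := by
      rw [integral_add (int_of_mem hh1).abs (int_of_mem hh1)]
      have : ∫ x, h x ∂m = 0 := hI
      rw [this, add_zero]
    rw [e1]
    calc ∫ x, (|h x| + h x) ∂m ≤ ∫ x, 2 * (c2 + 2 * B) * χ x ∂m := by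
          refine integral_mono_ae ((int_of_mem hh1).abs.add (int_of_mem hh1))
            ((int_of_mem hχ1).const_mul _) ?_
          filter_upwards [hhup, nonneg_iff_ae.1 hχ0] with x a1 a2
          have a3 : 0 ≤ (c2 + 2 * B) * χ x := by positivity
          show |h x| + h x ≤ 2 * (c2 + 2 * B) * χ x
          rcases le_total 0 (h x) with hx | hx
          · rw [abs_of_nonneg hx]; linarith
          · rw [abs_of_nonpos hx]; linarith
      _ = 2 * (c2 + 2 * B) * I χ := by rw [integral_const_mul]; rfl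
      _ ≤ V1 := by rw [hV1]; exact mul_le_mul_of_nonneg_left hχV (by positivity)
  refine ⟨η, h, hlap, l1, l2, ?_, ?_, ?_, ?_, fun g hg => ?_⟩
  · filter_upwards [hhup, hχle, nonneg_iff_ae.1 hχ0] with x a1 a2 a3
    have : (c2 + 2 * B) * χ x ≤ (c2 + 2 * B) * 1 := mul_le_mul_of_nonneg_left a2 (by positivity)
    linarith
  · filter_upwards [hhχ, hχle, nonneg_iff_ae.1 hχ0] with x a1 a2 a3
    have : (c1 + c2 + 4 * B) * χ x ≤ (c1 + c2 + 4 * B) * 1 :=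
      mul_le_mul_of_nonneg_left a2 (by positivity)
    linarith
  · calc I (h ^ 2) ≤ ∫ x, (c1 + c2 + 4 * B) * |h x| ∂m := by
          refine integral_mono_ae (int_of_mem (mem_sq hh2)) ((int_of_mem hh1).abs.const_mul _) ?_
          filter_upwards [hhχ, hχle, nonneg_iff_ae.1 hχ0, sq_ae h] with x a1 a2 a3 a4
          rw [a4, ← sq_abs, sq]
          refine mul_le_mul_of_nonneg_right ?_ (abs_nonneg _)
          have : (c1 + c2 + 4 * B) * χ x ≤ (c1 + c2 + 4 * B) * 1 :=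
            mul_le_mul_of_nonneg_left a2 (by positivity)
          linarith
      _ = (c1 + c2 + 4 * B) * ∫ x, |h x| ∂m := integral_const_mul _ _
      _ ≤ _ := mul_le_mul_of_nonneg_left habs (by positivity)
  · have e1 : I (C.Γ η η) = -I (h * η) := hlap.2.2 _ hlap.1
    rw [e1]
    have hηT : MemLp η ∞ m := mem_top_iff.2 ⟨B, hηB⟩
    have m1 : MemLp (h * η : M →ₘ[m] ℝ) 1 m := mem_top_mul hh1 hηT
    calc -I (h * η) ≤ |I (h * η)| := neg_le_abs _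
      _ ≤ ∫ x, |(h * η : M →ₘ[m] ℝ) x| ∂m := abs_integral_le_integral_abs
      _ ≤ ∫ x, B * |h x| ∂m := by
          refine integral_mono_ae (int_of_mem m1).abs ((int_of_mem hh1).abs.const_mul _) ?_
          filter_upwards [mul_ae h η, hηB] with x a1 a2
          rw [a1, abs_mul, mul_comm]
          exact mul_le_mul_of_nonneg_right a2 (abs_nonneg _)
      _ = B * ∫ x, |h x| ∂m := integral_const_mul _ _
      _ ≤ _ := mul_le_mul_of_nonneg_left habs hB0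
  · filter_upwards [hC.Γ_eq_on hlap.1 hu.1 hg, le_iff_ae.1 l1, le_iff_ae.1 l2] with x a1 a4 a5 a3
    exact a1 (le_antisymm a5 (by rw [← a3]; exact a4))

end Vale.Agent.P233
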