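import Vale.Agent.P233.H339.Obst

/-!
# Lewy–Stampacchia with an upper bound of its own (helper22)

The proof of `IsDir.lewy_stampacchia` is helper339's; added: complementarity and the contact
inequality, which give an upper bound of `Δη` in terms of the upper bound of `Δu` only.
-/

set_option linter.all false

open MeasureTheory Filter Topology
open scoped ENNReal NNReal InnerProductSpace

namespace Vale.Agent.P233

variable {M : Type*} [MeasurableSpace M] {m : Measure M} {C : Calc m}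
variable {f g h k φ u η χ : M →ₘ[m] ℝ}

/-- a nonnegative functional on nonnegative functions of `W` -/
theorem IsDir.nonneg_W (hC : IsDir C) {F : M →ₘ[m] ℝ} (hF : MemLp F 2 m)
    (H : ∀ g ∈ C.W, 0 ≤ g → 0 ≤ I (F * g)) : 0 ≤ F := by
  set ψ : M →ₘ[m] ℝ := (-F) ⊔ 0 with hψ
  have hψae : ∀ᵐ x ∂m, ψ x = max (-(F x)) 0 := by
    filter_upwards [AEEqFun.coeFn_sup (-F) 0, neg_ae F, zero_ae (M := M) (m := m)] with x a1 a2 a3
    show ((-F) ⊔ 0 : M →ₘ[m] ℝ) x = _
    rw [a1, a2, a3]
  have hψ2 : MemLp ψ 2 m := by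
    refine mem_of_le hF ?_
    filter_upwards [hψae] with x hx
    rw [hx, abs_of_nonneg (le_max_right _ _)]
    exact max_le (neg_le_abs _) (abs_nonneg _)
  have hψ0 : 0 ≤ ψ := by
    rw [nonneg_iff_ae]
    filter_upwards [hψae] with x hx
    rw [hx]; exact le_max_right _ _
  have hl : ∀ n : ℕ, (0 : ℝ) < ((n : ℝ) + 1)⁻¹ := fun n => by positivity
  have h1 : ∀ n : ℕ, 0 ≤ I (F * C.J ((n : ℝ) + 1)⁻¹ ψ) := fun n =>
    H _ (hC.J_mem (hl n) hψ2) (hC.J_nonneg (hl n) hψ2 hψ0)
  have h2 : Tendsto (fun n : ℕ => I (F * C.J ((n : ℝ) + 1)⁻¹ ψ)) atTop (𝓝 (I (F * ψ))) := by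
    have hb : ∀ n : ℕ, |I (F * C.J ((n : ℝ) + 1)⁻¹ ψ) - I (F * ψ)|
        ≤ √(I (F ^ 2)) * √(I ((C.J ((n : ℝ) + 1)⁻¹ ψ - ψ) ^ 2)) := by
      intro n
      have hJ := hC.J_mem2 (hl n) hψ2
      rw [← I_sub (mem_mul_22 hF hJ) (mem_mul_22 hF hψ2), ← mul_sub]
      exact I_abs_le hF (mem_sub hJ hψ2)
    have hz : Tendsto (fun n : ℕ => √(I (F ^ 2)) * √(I ((C.J ((n : ℝ) + 1)⁻¹ ψ - ψ) ^ 2))) atTop
        (𝓝 0) := by
      simpa using (hC.J_tendsto_L2 hψ2).sqrt.const_mul (√(I (F ^ 2)))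
    rw [tendsto_iff_dist_tendsto_zero]
    exact squeeze_zero (fun n => dist_nonneg) (fun n => by rw [Real.dist_eq]; exact hb n) hz
  have h3 : 0 ≤ I (F * ψ) := ge_of_tendsto' h2 h1
  have h4 : F * ψ = -(ψ ^ 2) := by
    rw [eq_iff_ae]
    filter_upwards [mul_ae F ψ, neg_ae (ψ ^ 2), sq_ae ψ, hψae] with x a1 a2 a3 a4
    rw [a1, a2, a3, a4]
    rcases le_total (-(F x)) 0 with h | h
    · rw [max_eq_right h]; ring
    · rw [max_eq_left h]; ring
  rw [h4, I_neg] at h3
  have h5 : I (ψ ^ 2) = 0 := le_antisymm (by linarith) (I_sq_nonneg ψ)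
  have h6 := I_sq_eq_zero hψ2 h5
  rw [nonneg_iff_ae]
  filter_upwards [eq_iff_ae.1 h6, hψae, zero_ae (M := M) (m := m)] with x a1 a2 a3
  rw [a1, a3] at a2
  have := le_max_left (-(F x)) 0
  linarith

/-- contact inequality: `η ≤ u`, `Δu ≤ K` weakly; then `Δη ≤ K` almost everywhere on `{η = u}` -/
theorem IsDir.contact (hC : IsDir C) {K : M →ₘ[m] ℝ} (hη : C.IsLap η h) (hu : u ∈ C.W)
    (hηu : η ≤ u) (hK : MemLp K 2 m) (h2 : ∀ g ∈ C.W, 0 ≤ g → -I (C.Γ u g) ≤ I (K * g)) :
    ∀ᵐ x ∂m, η x = u x → h x ≤ K x := by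
  set f : M →ₘ[m] ℝ := u - η with hf
  have hfW : f ∈ C.W := hC.sub_mem hu hη.1
  have hf0 : ∀ᵐ x ∂m, 0 ≤ f x := by
    filter_upwards [le_iff_ae.1 hηu, sub_ae u η] with x a1 a2
    rw [a2]; linarith
  have hfm : Measurable (f : M → ℝ) := AEEqFun.measurable f
  have hms : MeasurableSet {x | f x = 0} := hfm (measurableSet_singleton 0)
  have hKh : Measurable fun x => K x - h x := (AEEqFun.measurable K).sub (AEEqFun.measurable h)
  set F : M →ₘ[m] ℝ := AEEqFun.mk ({x | f x = 0}.indicator fun x => K x - h x)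
    (hKh.indicator hms).aestronglyMeasurable with hF
  have hFae : ∀ᵐ x ∂m, F x = if f x = 0 then K x - h x else 0 := by
    filter_upwards [AEEqFun.coeFn_mk ({x | f x = 0}.indicator fun x => K x - h x)
      (hKh.indicator hms).aestronglyMeasurable] with x hx
    rw [hF, hx]; simp [Set.indicator]
  have hF2 : MemLp F 2 m := by
    refine mem_of_le (mem_sub hK hη.2.1) ?_
    filter_upwards [hFae, sub_ae K h] with x a1 a2
    rw [a1, a2]
    split_ifs
    · exact le_rfl
    · simp
  have key : 0 ≤ F := by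
    refine hC.nonneg_W hF2 fun g hg hg0 => ?_
    have hg2 := hC.memLp g hg
    -- the test functions
    have hnf : ∀ n : ℕ, (n : ℝ) • f ∈ C.W := fun n => hC.smul_mem _ _ hfW
    set w : ℕ → M →ₘ[m] ℝ := fun n => (g - (n : ℝ) • f) ⊔ 0 with hw
    have hwW : ∀ n, w n ∈ C.W := fun n => hC.pos_mem (hC.sub_mem hg (hnf n))
    have hwae : ∀ n, ∀ᵐ x ∂m, w n x = max (g x - n * f x) 0 := fun n => by
      filter_upwards [AEEqFun.coeFn_sup (g - (n : ℝ) • f) 0, sub_ae g ((n : ℝ) • f),
        smul_ae f (n : ℝ), zero_ae (M := M) (m := m)] with x a1 a2 a3 a4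
      show ((g - (n : ℝ) • f) ⊔ 0 : M →ₘ[m] ℝ) x = _
      rw [a1, a2, a3, a4]
    have hw0 : ∀ n, 0 ≤ w n := fun n => by
      rw [nonneg_iff_ae]
      filter_upwards [hwae n] with x hx
      rw [hx]; exact le_max_right _ _
    have hg0' := nonneg_iff_ae.1 hg0
    -- the inequality for `w n`
    have hle : ∀ n : ℕ, 0 ≤ I ((K - h) * w n) + ∫ x, (if (n : ℝ) * f x < g x then C.Γ f g x else 0) ∂m := by
      intro n
      have b1 := h2 _ (hwW n) (hw0 n)
      have b2 : I (C.Γ η (w n)) = -I (h * w n) := hη.2.2 _ (hwW n)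
      have b3 : I (C.Γ f (w n)) = I (C.Γ u (w n)) - I (C.Γ η (w n)) := by
        rw [hf, hC.Γ_sub_left hu hη.1 (hwW n), I_sub (hC.Γ_mem1 hu (hwW n))
          (hC.Γ_mem1 hη.1 (hwW n))]
      have b4 : I ((K - h) * w n) = I (K * w n) - I (h * w n) := by
        rw [sub_mul, I_sub (mem_mul_22 hK (hC.memLp _ (hwW n)))
          (mem_mul_22 hη.2.1 (hC.memLp _ (hwW n)))]
      have b5 : I (C.Γ f (w n)) ≤ ∫ x, (if (n : ℝ) * f x < g x then C.Γ f g x else 0) ∂m := by
        have c1 := hC.Γ_pos (hC.sub_mem hg (hnf n)) hfW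
        refine integral_mono_ae (int_of_mem (hC.Γ_mem1 hfW (hwW n))) ?_ ?_
        · have hmeas : Measurable fun x => if (n : ℝ) * f x < g x then C.Γ f g x else 0 :=
            Measurable.ite (measurableSet_lt (hfm.const_mul _) (AEEqFun.measurable g))
              (AEEqFun.measurable _) measurable_const
          refine (int_of_mem (hC.Γ_mem1 hfW hg)).mono hmeas.aestronglyMeasurable ?_
          filter_upwards with x
          split_ifs
          · exact le_rfl
          · simp
        · filter_upwards [c1, sub_ae g ((n : ℝ) • f), smul_ae f (n : ℝ),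
            eq_iff_ae.1 (hC.symm _ hfW _ (hwW n)), eq_iff_ae.1 (hC.Γ_sub_left hg (hnf n) hfW),
            sub_ae (C.Γ g f) (C.Γ ((n : ℝ) • f) f), eq_iff_ae.1 (hC.smul_left (n : ℝ) _ hfW _ hfW),
            smul_ae (C.Γ f f) (n : ℝ), eq_iff_ae.1 (hC.symm _ hg _ hfW), hC.Γ_nonneg_ae hfW]
            with x a1 a2 a3 a4 a5 a6 a7 a8 a9 a10
          rw [a4]
          show C.Γ ((g - (n : ℝ) • f) ⊔ 0) f x ≤ _
          rw [a1, a2, a3]
          by_cases hx : (n : ℝ) * f x < g x
          · rw [if_pos (by linarith), if_pos hx, a5, a6, a7, a8, a9]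
            have : 0 ≤ (n : ℝ) * C.Γ f f x := mul_nonneg (Nat.cast_nonneg n) a10
            linarith
          · rw [if_neg (by linarith), if_neg hx]
      rw [b4]
      linarith
    -- limits
    have hlim : ∀ᵐ x ∂m, ∀ᶠ n : ℕ in atTop, 0 < f x → g x ≤ (n : ℝ) * f x := by
      filter_upwards with x
      by_cases hx : 0 < f x
      · filter_upwards [(tendsto_natCast_atTop_atTop (R := ℝ)).eventually_ge_atTop (g x / f x)] with n hn _
        rwa [div_le_iff₀ hx] at hn
      · exact Eventually.of_forall fun n h => absurd h hx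
    have l1 : Tendsto (fun n => I ((K - h) * w n)) atTop (𝓝 (I (F * g))) := by
      refine I_tendsto_of_dominated (G := fun x => |((K - h) * g : M →ₘ[m] ℝ) x|)
        (int_of_mem (mem_mul_22 (mem_sub hK hη.2.1) hg2)).abs (fun n => ?_) ?_
      · filter_upwards [mul_ae (K - h) (w n), mul_ae (K - h) g, hwae n, hg0', hf0] with x a1 a2 a3 a4 a5
        rw [a1, a2, abs_mul, abs_mul, a3, abs_of_nonneg (le_max_right (g x - n * f x) 0)]
        refine mul_le_mul_of_nonneg_left ?_ (abs_nonneg _)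
        refine (max_le ?_ a4).trans (le_abs_self _)
        have : 0 ≤ (n : ℝ) * f x := mul_nonneg (Nat.cast_nonneg n) a5
        linarith
      · filter_upwards [ae_all_iff.2 fun n => mul_ae (K - h) (w n), mul_ae F g, sub_ae K h,
          ae_all_iff.2 hwae, hg0', hf0, hFae, hlim] with x a1 a2 a3 a4 a5 a6 a7 a8
        simp_rw [a1, a2, a3, a4, a7]
        by_cases hx : f x = 0
        · rw [if_pos hx]
          simp_rw [hx, mul_zero, sub_zero, max_eq_left a5]
          exact tendsto_const_nhds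
        · rw [if_neg hx, zero_mul]
          refine tendsto_const_nhds.congr' ?_
          filter_upwards [a8] with n hn
          rw [max_eq_right (by linarith [hn (lt_of_le_of_ne a6 (Ne.symm hx))]), mul_zero]
    have l2 : Tendsto (fun n : ℕ => ∫ x, (if (n : ℝ) * f x < g x then C.Γ f g x else 0) ∂m) atTop
        (𝓝 (∫ x, (0 : ℝ) ∂m)) := by
      refine tendsto_integral_of_dominated_convergence (fun x => |C.Γ f g x|) (fun n => ?_)
        (int_of_mem (hC.Γ_mem1 hfW hg)).abs (fun n => ?_) ?_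
      · exact (Measurable.ite (measurableSet_lt (hfm.const_mul _) (AEEqFun.measurable g))
          (AEEqFun.measurable _) measurable_const).aestronglyMeasurable
      · filter_upwards with x
        split_ifs
        · exact le_rfl
        · simp
      · filter_upwards [hC.Γ_ae_zero hfW hg, hf0, hlim] with x a1 a2 a3
        by_cases hx : f x = 0
        · simp [a1 hx]
        · refine tendsto_const_nhds.congr' ?_
          filter_upwards [a3] with n hn
          rw [if_neg (by linarith [hn (lt_of_le_of_ne a2 (Ne.symm hx))])]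
    have l3 := l1.add l2
    rw [integral_zero, add_zero] at l3
    exact ge_of_tendsto' l3 hle
  filter_upwards [nonneg_iff_ae.1 key, hFae, sub_ae u η] with x a1 a2 a3 a4
  rw [a2, if_pos (by rw [hf, a3, a4]; ring)] at a1
  linarith

/-- **Lewy–Stampacchia** for two obstacles, with an own upper bound -/
theorem IsDir.lewy_stampacchia2 (hC : IsDir C) [SigmaFinite m] {φ u K K2 : M →ₘ[m] ℝ}
    (hφ : φ ∈ C.W) (hu : u ∈ C.W) (hle : φ ≤ u) (hK : MemLp K 2 m) (hK0 : 0 ≤ K)
    (h1 : ∀ g ∈ C.W, 0 ≤ g → I (C.Γ φ g) ≤ I (K * g))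
    (h2 : ∀ g ∈ C.W, 0 ≤ g → -I (C.Γ u g) ≤ I (K * g)) (hK2 : MemLp K2 2 m) (hK20 : 0 ≤ K2)
    (h2' : ∀ g ∈ C.W, 0 ≤ g → -I (C.Γ u g) ≤ I (K2 * g)) :
    ∃ η h : M →ₘ[m] ℝ, C.IsLap η h ∧ φ ≤ η ∧ η ≤ u ∧
      (∀ᵐ x ∂m, |h x| ≤ K x + 2 * (|φ x| + |u x|)) ∧
      ∀ᵐ x ∂m, h x ≤ K2 x + (|φ x| + |u x|) := by
  have hφ2 := hC.memLp φ hφ
  have hu2 := hC.memLp u hu
  set ab : (M →ₘ[m] ℝ) → (M →ₘ[m] ℝ) := fun f => AEEqFun.comp (fun t : ℝ => |t|) continuous_abs f
    with hab
  have hab_ae : ∀ f : M →ₘ[m] ℝ, ∀ᵐ x ∂m, ab f x = |f x| := fun f =>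
    AEEqFun.coeFn_comp _ continuous_abs f
  have hab2 : ∀ f : M →ₘ[m] ℝ, MemLp f 2 m → MemLp (ab f) 2 m := fun f hf =>
    (memLp_congr_ae (AEEqFun.coeFn_comp _ continuous_abs f)).2 hf.abs
  set k : M →ₘ[m] ℝ := K + ab φ + ab u with hkd
  have hk_ae : ∀ᵐ x ∂m, k x = K x + |φ x| + |u x| := by
    filter_upwards [add_ae (K + ab φ) (ab u), add_ae K (ab φ), hab_ae φ, hab_ae u]
      with x a1 a2 a3 a4
    rw [a1, a2, a3, a4]
  have hk : MemLp k 2 m := mem_add (mem_add hK (hab2 φ hφ2)) (hab2 u hu2)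
  have hk0 : 0 ≤ k := by
    rw [nonneg_iff_ae]
    filter_upwards [hk_ae, nonneg_iff_ae.1 hK0] with x a1 a2
    rw [a1]; positivity
  obtain ⟨η, hη, hmin⟩ := LS.exists_min hC hk hk0 hφ2 hle
  have hη2 := hC.memLp η hη
  have hvar := fun g (hg : g ∈ C.W) => LS.first_var hC hk hk0 hφ2 hle hη hmin hg
  obtain ⟨G, hG, hrep⟩ := hC.exists_rep (ℓ := LS.ipW C η) (B := √(I (k ^ 2)))
    (fun f hf g hg => LS.ipW_add_right hC hη hf hg)
    (fun c f hf => LS.ipW_smul_right hC c hη hf)
    (fun f hf => (hvar f hf).trans (LS.int_abs_le hk (hC.memLp f hf) hk0))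
  have hGk : ∀ᵐ x ∂m, |G x| ≤ k x :=
    LS.rep_bound hC hG hk hk0 fun g hg => by rw [← hrep g hg]; exact hvar g hg
  -- `η ≤ u`
  have hηu : ∀ᵐ x ∂m, η x ≤ u x := by
    have hd : η - u ∈ C.W := hC.sub_mem hη hu
    obtain ⟨w, hw, hwae, hw1⟩ := LS.exists_psi hC hd
    have hw2 := hC.memLp w hw
    have hw0 : 0 ≤ w := by
      rw [nonneg_iff_ae]
      filter_upwards [hwae] with x a1
      rw [a1]; exact LS.psi_nonneg _
    have a1 := LS.var_down (s := -1) hC hη hmin hk hφ2 hle hw (fun t ht0 ht1 => by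
      filter_upwards [hwae, sub_ae η u, le_iff_ae.1 hle] with x b1 b2 b3
      have b4 : 0 ≤ LS.psi ((η - u : M →ₘ[m] ℝ) x) := LS.psi_nonneg _
      have b5 := LS.psi_le ((η - u : M →ₘ[m] ℝ) x)
      rw [show η x + t * (-1 * w x) = η x - t * w x by ring, b1]
      refine LS.pd_down b3 (mul_nonneg ht0 b4) ?_
      rw [← b2]
      refine le_trans ?_ b5
      calc t * LS.psi ((η - u : M →ₘ[m] ℝ) x) ≤ 1 * LS.psi ((η - u : M →ₘ[m] ℝ) x) := by gcongr
        _ = _ := one_mul _)
    have a2 := h2 w hw hw0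
    have a3 : -I (k * w) ≤ LS.ipW C u w := by
      unfold LS.ipW
      have b1 : I (K * w) - I (u * w) ≤ I (k * w) := by
        rw [← I_sub (mem_mul_22 hK hw2) (mem_mul_22 hu2 hw2)]
        refine I_mono (mem_sub (mem_mul_22 hK hw2) (mem_mul_22 hu2 hw2)) (mem_mul_22 hk hw2) ?_
        rw [le_iff_ae]
        filter_upwards [hk_ae, sub_ae (K * w) (u * w), mul_ae K w, mul_ae u w, mul_ae k w,
          nonneg_iff_ae.1 hw0] with x c1 c2 c3 c4 c5 c6
        rw [c2, c3, c4, c5, c1, ← sub_mul]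
        refine mul_le_mul_of_nonneg_right ?_ c6
        linarith [neg_abs_le (u x), abs_nonneg (φ x)]
      linarith
    have a4 : LS.ipW C (η - u) w ≤ 0 := by
      rw [LS.ipW_sub_left hC hη hu hw]; linarith
    have a5 : I ((η - u) * w) ≤ 0 := by
      unfold LS.ipW at a4; linarith
    filter_upwards [LS.nonpos_of_psi (hC.memLp _ hd) hw2 hwae a5, sub_ae η u] with x b1 b2
    rw [b2] at b1; linarith
  -- `φ ≤ η`
  have hφη : ∀ᵐ x ∂m, φ x ≤ η x := by
    have hd : φ - η ∈ C.W := hC.sub_mem hφ hη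
    obtain ⟨w, hw, hwae, hw1⟩ := LS.exists_psi hC hd
    have hw2 := hC.memLp w hw
    have hw0 : 0 ≤ w := by
      rw [nonneg_iff_ae]
      filter_upwards [hwae] with x a1
      rw [a1]; exact LS.psi_nonneg _
    have a1 := LS.var_down (s := 1) hC hη hmin hk hφ2 hle hw (fun t ht0 ht1 => by
      filter_upwards [hwae, sub_ae φ η, le_iff_ae.1 hle] with x b1 b2 b3
      have b4 : 0 ≤ LS.psi ((φ - η : M →ₘ[m] ℝ) x) := LS.psi_nonneg _
      have b5 := LS.psi_le ((φ - η : M →ₘ[m] ℝ) x)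
      rw [one_mul, b1]
      refine LS.pd_up b3 (mul_nonneg ht0 b4) ?_
      rw [← b2]
      refine le_trans ?_ b5
      calc t * LS.psi ((φ - η : M →ₘ[m] ℝ) x) ≤ 1 * LS.psi ((φ - η : M →ₘ[m] ℝ) x) := by gcongr
        _ = _ := one_mul _)
    have a2 := h1 w hw hw0
    have a3 : LS.ipW C φ w ≤ I (k * w) := by
      unfold LS.ipW
      have b1 : I (K * w) + I (φ * w) ≤ I (k * w) := by
        rw [← I_add (mem_mul_22 hK hw2) (mem_mul_22 hφ2 hw2)]
        refine I_mono (mem_add (mem_mul_22 hK hw2) (mem_mul_22 hφ2 hw2)) (mem_mul_22 hk hw2) ?_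
        rw [le_iff_ae]
        filter_upwards [hk_ae, add_ae (K * w) (φ * w), mul_ae K w, mul_ae φ w, mul_ae k w,
          nonneg_iff_ae.1 hw0] with x c1 c2 c3 c4 c5 c6
        rw [c2, c3, c4, c5, c1, ← add_mul]
        refine mul_le_mul_of_nonneg_right ?_ c6
        linarith [le_abs_self (φ x), abs_nonneg (u x)]
      linarith
    have a4 : LS.ipW C (φ - η) w ≤ 0 := by
      rw [LS.ipW_sub_left hC hφ hη hw]; linarith
    have a5 : I ((φ - η) * w) ≤ 0 := by
      unfold LS.ipW at a4; linarith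
    filter_upwards [LS.nonpos_of_psi (hC.memLp _ hd) hw2 hwae a5, sub_ae φ η] with x b1 b2
    rw [b2] at b1; linarith
  -- complementarity
  have hcomp : ∀ᵐ x ∂m, η x < u x → 0 ≤ G x := by
    set f : M →ₘ[m] ℝ := u - η with hf
    have hfW : f ∈ C.W := hC.sub_mem hu hη
    have hf0 : ∀ᵐ x ∂m, 0 ≤ f x := by
      filter_upwards [hηu, sub_ae u η] with x a1 a2
      rw [a2]; linarith
    have hfm : Measurable (f : M → ℝ) := AEEqFun.measurable f
    have hms : MeasurableSet {x | 0 < f x} := measurableSet_lt measurable_const hfm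
    set F : M →ₘ[m] ℝ := AEEqFun.mk ({x | 0 < f x}.indicator fun x => G x)
      ((AEEqFun.measurable G).indicator hms).aestronglyMeasurable with hF
    have hFae : ∀ᵐ x ∂m, F x = if 0 < f x then G x else 0 := by
      filter_upwards [AEEqFun.coeFn_mk ({x | 0 < f x}.indicator fun x => G x)
        ((AEEqFun.measurable G).indicator hms).aestronglyMeasurable] with x hx
      rw [hF, hx]; simp [Set.indicator]
    have hF2 : MemLp F 2 m := by
      refine mem_of_le hG ?_
      filter_upwards [hFae] with x a1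
      rw [a1]
      split_ifs
      · exact le_rfl
      · simp
    have key : 0 ≤ F := by
      refine hC.nonneg_W hF2 fun g hg hg0 => ?_
      have hg2 := hC.memLp g hg
      have hg0' := nonneg_iff_ae.1 hg0
      set w : ℕ → M →ₘ[m] ℝ := fun n => ((n : ℝ) • f) ⊓ g with hw
      have hwW : ∀ n, w n ∈ C.W := fun n => hC.inf_mem (hC.smul_mem _ _ hfW) hg
      have hwae : ∀ n, ∀ᵐ x ∂m, w n x = min (n * f x) (g x) := fun n => by
        filter_upwards [AEEqFun.coeFn_inf ((n : ℝ) • f) g, smul_ae f (n : ℝ)] with x a1 a2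
        show (((n : ℝ) • f) ⊓ g : M →ₘ[m] ℝ) x = _
        rw [a1, a2]
      have hstep : ∀ n : ℕ, 0 ≤ I (G * w n) := by
        intro n
        rw [← hrep _ (hwW n)]
        have hn := hC.nrm2_nonneg (hwW n)
        refine le_of_forall_pos_le_add fun ε hε => ?_
        set t : ℝ := min ((n : ℝ) + 1)⁻¹ (ε / (C.nrm2 (w n) + 1)) with ht
        have hn1 : (0 : ℝ) < ((n : ℝ) + 1)⁻¹ := by positivity
        have ht0 : 0 < t := lt_min hn1 (by positivity)
        have ht1 : t ≤ ((n : ℝ) + 1)⁻¹ := min_le_left _ _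
        have ht2 : t * n ≤ 1 := by
          have : t * ((n : ℝ) + 1) ≤ 1 := by
            rw [← le_div_iff₀ (by positivity)]; simpa using ht1
          nlinarith
        have b1 := hmin _ (hC.add_mem _ hη _ (hC.smul_mem t _ (hwW n)))
        have b2 : LS.pen k φ u (η + t • w n) = 0 := by
          unfold LS.pen
          rw [integral_eq_zero_of_ae]
          filter_upwards [add_ae η (t • w n), smul_ae (w n) t, hwae n, hηu, hφη, hf0, sub_ae u η,
            hg0'] with x c1 c2 c3 c4 c5 c6 c7 c8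
          have c9 : (η + t • w n : M →ₘ[m] ℝ) x ≤ u x := by
            rw [c1, c2, c3]
            have d1 : t * min (n * f x) (g x) ≤ t * (n * f x) :=
              mul_le_mul_of_nonneg_left (min_le_left _ _) ht0.le
            have d2 : t * (n * f x) ≤ 1 * f x := by
              rw [← mul_assoc]; exact mul_le_mul_of_nonneg_right ht2 c6
            have d3 : f x = u x - η x := by rw [hf, c7]
            linarith
          have c10 : φ x ≤ (η + t • w n : M →ₘ[m] ℝ) x := by
            rw [c1, c2, c3]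
            have : 0 ≤ t * min (n * f x) (g x) :=
              mul_nonneg ht0.le (le_min (mul_nonneg (Nat.cast_nonneg n) c6) c8)
            linarith
          show k x * LS.pd (φ x) (u x) ((η + t • w n : M →ₘ[m] ℝ) x) = 0
          unfold LS.pd
          rw [max_eq_right (by linarith), max_eq_right (by linarith)]; ring
        have b3 : 0 ≤ LS.pen k φ u η := LS.pen_nonneg hk0
        have b4 := LS.nrm2_add_smul hC hη (hwW n) t
        unfold LS.Fn at b1
        rw [b2, b4] at b1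
        have b5 : 0 ≤ t * (LS.ipW C η (w n) + t * C.nrm2 (w n) / 2) := by nlinarith
        have b6 := nonneg_of_mul_nonneg_right b5 ht0
        have b7 : t * C.nrm2 (w n) ≤ ε := by
          have : t ≤ ε / (C.nrm2 (w n) + 1) := min_le_right _ _
          calc t * C.nrm2 (w n) ≤ ε / (C.nrm2 (w n) + 1) * C.nrm2 (w n) := by gcongr
            _ ≤ ε := by
              rw [div_mul_eq_mul_div, div_le_iff₀ (by positivity)]
              nlinarith
        linarith
      have l1 : Tendsto (fun n => I (G * w n)) atTop (𝓝 (I (F * g))) := by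
        refine I_tendsto_of_dominated (G := fun x => |(G * g : M →ₘ[m] ℝ) x|)
          (int_of_mem (mem_mul_22 hG hg2)).abs (fun n => ?_) ?_
        · filter_upwards [mul_ae G (w n), mul_ae G g, hwae n, hg0', hf0] with x a1 a2 a3 a4 a5
          rw [a1, a2, abs_mul, abs_mul, a3,
            abs_of_nonneg (le_min (mul_nonneg (Nat.cast_nonneg n) a5) a4)]
          exact mul_le_mul_of_nonneg_left ((min_le_right _ _).trans (le_abs_self _)) (abs_nonneg _)
        · filter_upwards [ae_all_iff.2 fun n => mul_ae G (w n), mul_ae F g,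
            ae_all_iff.2 hwae, hg0', hf0, hFae] with x a1 a2 a4 a5 a6 a7
          simp_rw [a1, a2, a4, a7]
          by_cases hx : 0 < f x
          · rw [if_pos hx]
            refine tendsto_const_nhds.congr' ?_
            filter_upwards [(tendsto_natCast_atTop_atTop (R := ℝ)).eventually_ge_atTop
              (g x / f x)] with n hn
            rw [div_le_iff₀ hx] at hn
            rw [min_eq_right hn]
          · rw [if_neg hx, zero_mul]
            have h0 : f x = 0 := le_antisymm (not_lt.1 hx) a6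
            refine tendsto_const_nhds.congr fun n => ?_
            rw [h0, mul_zero, min_eq_left a5, mul_zero]
      exact ge_of_tendsto' l1 hstep
    filter_upwards [nonneg_iff_ae.1 key, hFae, sub_ae u η] with x a1 a2 a3 a4
    rwa [a2, if_pos (by rw [hf, a3]; linarith)] at a1
  have hlap : C.IsLap η (η - G) := by
    refine ⟨hη, mem_sub hη2 hG, fun g hg => ?_⟩
    have a1 := hrep g hg
    have a2 : I ((η - G) * g) = I (η * g) - I (G * g) := by
      rw [sub_mul, I_sub (mem_mul_22 hη2 (hC.memLp g hg)) (mem_mul_22 hG (hC.memLp g hg))]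
    show I (C.Γ η g) = -I ((η - G) * g)
    unfold LS.ipW at a1
    linarith
  have hηb : ∀ᵐ x ∂m, |η x| ≤ |φ x| + |u x| := by
    filter_upwards [hηu, hφη] with x a1 a2
    rw [abs_le]
    constructor
    · linarith [neg_abs_le (φ x), abs_nonneg (u x)]
    · linarith [le_abs_self (u x), abs_nonneg (φ x)]
  refine ⟨η, η - G, hlap, le_iff_ae.2 hφη, le_iff_ae.2 hηu, ?_, ?_⟩
  · filter_upwards [hηb, hGk, hk_ae, sub_ae η G] with x b1 a3 a4 a5
    rw [a5]
    have b2 := abs_sub (η x) (G x)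
    linarith
  · filter_upwards [hC.contact hlap hu (le_iff_ae.2 hηu) hK2 h2', hcomp, sub_ae η G, hηb, hηu,
      nonneg_iff_ae.1 hK20] with x a1 a2 a3 a4 a5 a6
    rcases eq_or_lt_of_le a5 with h | h
    · have := a1 h
      linarith [abs_nonneg (φ x), abs_nonneg (u x)]
    · rw [a3]
      have := a2 h
      linarith [le_abs_self (η x)]

end Vale.Agent.P233
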